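import Mathlib

/-!
Generic Zariski-closure machinery in an affine space `ι → ℂ` (arbitrary index type).
-/

namespace Vale.Agent.Lib.P002

open MvPolynomial

variable {ι : Type*}

/-- Zariski closure of a subset of the affine space `ι → ℂ`. -/
def zcl (S : Set (ι → ℂ)) : Set (ι → ℂ) :=
  {x | ∀ F : MvPolynomial ι ℂ, (∀ y ∈ S, eval y F = 0) → eval x F = 0}

theorem subset_zcl (S : Set (ι → ℂ)) : S ⊆ zcl S := fun x hx _ hF => hF x hx

theorem zcl_mono {S T : Set (ι → ℂ)} (h : S ⊆ T) : zcl S ⊆ zcl T :=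
  fun _ hx F hF => hx F (fun y hy => hF y (h hy))

theorem eval_bind₁' (x : ι → ℂ) (ψ : ι → MvPolynomial ι ℂ) (F : MvPolynomial ι ℂ) :
    eval x (bind₁ ψ F) = eval (fun p => eval x (ψ p)) F := by
  have := aeval_bind₁ (R := ℂ) x ψ F
  simpa [coe_aeval_eq_eval] using this

/-- Polynomial maps are Zariski continuous. -/
theorem zcl_polyMap {S T : Set (ι → ℂ)} (Ψ : (ι → ℂ) → (ι → ℂ)) (ψ : ι → MvPolynomial ι ℂ)
    (hψ : ∀ x p, Ψ x p = eval x (ψ p)) (hS : ∀ y ∈ S, Ψ y ∈ T) :
    ∀ x ∈ zcl S, Ψ x ∈ zcl T := by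
  intro x hx F hF
  have h1 : ∀ z, eval z (bind₁ ψ F) = eval (Ψ z) F := by
    intro z
    rw [eval_bind₁']
    have : (fun p => eval z (ψ p)) = Ψ z := by
      funext p
      exact (hψ z p).symm
    rw [this]
  rw [← h1]
  apply hx
  intro y hy
  rw [h1]
  exact hF _ (hS y hy)

/-- A polynomially parametrised line which meets a closed set infinitely often lies in it. -/
theorem zcl_lineParam {S : Set (ι → ℂ)} (xs : ℂ → (ι → ℂ)) (q : ι → Polynomial ℂ)
    (hq : ∀ s p, xs s p = (q p).eval s) (D : Set ℂ) (hD : D.Infinite)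
    (h : ∀ s ∈ D, xs s ∈ zcl S) : ∀ s, xs s ∈ zcl S := by
  intro s F hF
  set G : Polynomial ℂ := aeval q F with hG
  have key : ∀ t, G.eval t = eval (xs t) F := by
    intro t
    have h2 := comp_aeval (R := ℂ) q (Polynomial.aeval (R := ℂ) t)
    have h3 := congrArg (fun φ => φ F) h2
    simp only [AlgHom.comp_apply] at h3
    rw [hG]
    have h4 : (Polynomial.aeval t) ((aeval q) F) = Polynomial.eval t ((aeval q) F) := by
      simp [Polynomial.aeval_def, Polynomial.eval₂_eq_eval_map]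
    have h5 : (fun i => (Polynomial.aeval t) (q i)) = xs t := by
      funext p
      rw [hq]
      simp [Polynomial.aeval_def, Polynomial.eval₂_eq_eval_map]
    rw [← h4, h3, h5, aeval_eq_eval]
  have hG0 : G = 0 := by
    apply Polynomial.eq_zero_of_infinite_isRoot
    apply hD.mono
    intro t ht
    show G.eval t = 0
    rw [key]
    exact h t ht F hF
  rw [← key, hG0]
  simp

/-- coordinatewise scaling by units -/
def scale (w : ι → ℂˣ) (x : ι → ℂ) : ι → ℂ := fun p => (w p : ℂ) * x p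

theorem scale_mul (w w' : ι → ℂˣ) (x : ι → ℂ) : scale (w * w') x = scale w (scale w' x) := by
  funext p
  simp [scale, mul_assoc]

theorem scale_one (x : ι → ℂ) : scale (1 : ι → ℂˣ) x = x := by
  funext p
  simp [scale]

/-- The scalings which preserve the Zariski closure of `S`. -/
def stab (S : Set (ι → ℂ)) : Submonoid (ι → ℂˣ) where
  carrier := {w | ∀ x ∈ zcl S, scale w x ∈ zcl S}
  one_mem' := by
    intro x hx
    rw [scale_one]
    exact hx
  mul_mem' := by
    intro a b ha hb x hx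
    rw [scale_mul]
    exact ha _ (hb _ hx)

theorem mem_stab_iff {S : Set (ι → ℂ)} {w : ι → ℂˣ} :
    w ∈ stab S ↔ ∀ x ∈ zcl S, scale w x ∈ zcl S := Iff.rfl

theorem mem_stab_of_maps {S : Set (ι → ℂ)} {w : ι → ℂˣ} (h : ∀ y ∈ S, scale w y ∈ S) :
    w ∈ stab S := by
  rw [mem_stab_iff]
  apply zcl_polyMap (scale w) (fun p => C (w p : ℂ) * X p)
  · intro x p
    simp [scale]
  · exact h

theorem prod_zpow_eq {G κ : Type*} [CommGroup G] (a : G) (s : Finset κ) (f : κ → ℤ) :
    ∏ i ∈ s, a ^ (f i) = a ^ (∑ i ∈ s, f i) := by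
  classical
  induction s using Finset.induction_on with
  | empty => simp
  | insert i s hi ih => rw [Finset.prod_insert hi, Finset.sum_insert hi, zpow_add, ih]

theorem eval_scale_zpow (e : ι → ℤ) (x : ι → ℂ) (F : MvPolynomial ι ℂ) (t : ℂˣ) :
    eval (scale (fun p => t ^ (e p)) x) F =
      ∑ d ∈ F.support, (F.coeff d * ∏ i ∈ d.support, x i ^ d i) *
        ((t ^ (∑ i ∈ d.support, e i * (d i : ℤ)) : ℂˣ) : ℂ) := by
  rw [eval_eq]
  apply Finset.sum_congr rfl
  intro d _
  rw [mul_assoc]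
  congr 1
  rw [← prod_zpow_eq, Units.coe_prod, ← Finset.prod_mul_distrib]
  apply Finset.prod_congr rfl
  intro i _
  simp only [scale]
  rw [mul_pow, mul_comm, zpow_mul, zpow_natCast, Units.val_pow_eq_pow_val]

/-- A one-parameter monomial scaling family which preserves the closure for infinitely many
values of the parameter preserves it for all values of the parameter. -/
theorem zpow_mem_stab {S : Set (ι → ℂ)} (e : ι → ℤ) (D : Set ℂˣ) (hD : D.Infinite)
    (h : ∀ s ∈ D, (fun p => s ^ (e p)) ∈ stab S) : ∀ s : ℂˣ, (fun p => s ^ (e p)) ∈ stab S := by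
  intro s x hx F hF
  set E : (ι →₀ ℕ) → ℤ := fun d => ∑ i ∈ d.support, e i * (d i : ℤ) with hE
  set cst : (ι →₀ ℕ) → ℂ := fun d => F.coeff d * ∏ i ∈ d.support, x i ^ d i with hcst
  set N : ℕ := ∑ d ∈ F.support, (E d).natAbs with hN
  have hNd : ∀ d ∈ F.support, 0 ≤ E d + N := by
    intro d hd
    have h1 : (E d).natAbs ≤ N := Finset.single_le_sum (f := fun d => (E d).natAbs)
      (fun _ _ => Nat.zero_le _) hd
    have h2 : -(E d) ≤ ((E d).natAbs : ℤ) := by
      rw [Int.natCast_natAbs]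
      exact neg_le_abs _
    have h3 : ((E d).natAbs : ℤ) ≤ (N : ℤ) := by exact_mod_cast h1
    linarith
  set R : Polynomial ℂ :=
    ∑ d ∈ F.support, Polynomial.C (cst d) * Polynomial.X ^ ((E d + N).toNat) with hR
  have key : ∀ t : ℂˣ, R.eval (t : ℂ) = (t : ℂ) ^ N * eval (scale (fun p => t ^ (e p)) x) F := by
    intro t
    rw [eval_scale_zpow, hR, Polynomial.eval_finsetSum, Finset.mul_sum]
    apply Finset.sum_congr rfl
    intro d hd
    simp only [Polynomial.eval_mul, Polynomial.eval_C, Polynomial.eval_pow, Polynomial.eval_X]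
    have h1 : ((t : ℂ) ^ ((E d + N).toNat)) = (((t ^ (E d + N) : ℂˣ)) : ℂ) := by
      conv_rhs => rw [← Int.toNat_of_nonneg (hNd d hd)]
      rw [zpow_natCast, Units.val_pow_eq_pow_val]
    rw [h1, zpow_add, zpow_natCast, Units.val_mul, Units.val_pow_eq_pow_val]
    ring
  have hR0 : R = 0 := by
    apply Polynomial.eq_zero_of_infinite_isRoot
    have : ((fun t : ℂˣ => (t : ℂ)) '' D).Infinite :=
      hD.image (Units.val_injective.injOn)
    apply this.mono
    rintro _ ⟨t, ht, rfl⟩
    show R.eval (t : ℂ) = 0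
    rw [key]
    have := h t ht x hx F hF
    rw [this, mul_zero]
  have := key s
  rw [hR0, Polynomial.eval_zero] at this
  have hs : (s : ℂ) ^ N ≠ 0 := pow_ne_zero _ s.ne_zero
  exact (mul_eq_zero.mp this.symm).resolve_left hs

end Vale.Agent.Lib.P002
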