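import Mathlib

/-!
Definitions used in the statements on integral points of character varieties.
-/

namespace Vale.Agent.Lib.P002

open Matrix

/-- `SL_r(ℂ)`. -/
abbrev SLC (r : ℕ) := Matrix.SpecialLinearGroup (Fin r) ℂ

variable {Γ : Type*} [Group Γ] {r : ℕ}

/-- The matrix entries `ρ(g)_{ij}` of a representation, as a point of the affine space with
coordinates indexed by `Γ × Fin r × Fin r`. -/
def coords (ρ : Γ →* SLC r) : Γ × Fin r × Fin r → ℂ := fun p => (ρ p.1).1 p.2.1 p.2.2

/-- `W` is stable under all `ρ(g)`. -/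
def IsInvariant (ρ : Γ →* SLC r) (W : Submodule ℂ (Fin r → ℂ)) : Prop :=
  ∀ g, ∀ v ∈ W, (ρ g).1 *ᵥ v ∈ W

/-- Semisimple (completely reducible) representation: every invariant subspace has an invariant
complement. -/
def IsSemisimpleRep (ρ : Γ →* SLC r) : Prop :=
  ∀ W, IsInvariant ρ W → ∃ W', IsInvariant ρ W' ∧ IsCompl W W'

/-- All eigenvalues (roots of the characteristic polynomial) are roots of unity. -/
def IsQuasiUnipotent (c : SLC r) : Prop :=
  ∀ μ ∈ c.1.charpoly.roots, ∃ k : ℕ, 0 < k ∧ μ ^ k = 1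

/-- All matrix entries of `ρ` lie in the ring of integers of the subfield `L` of `ℂ`. -/
def IsIntegralRep (L : IntermediateField ℚ ℂ) (ρ : Γ →* SLC r) : Prop :=
  ∀ g i j, (ρ g).1 i j ∈ L ∧ IsIntegral ℤ ((ρ g).1 i j)

/-- `ρ` is a direct sum of one-dimensional representations: there is a basis of common
eigenvectors. -/
def IsSumOfCharacters (ρ : Γ →* SLC r) : Prop :=
  ∃ b : Module.Basis (Fin r) ℂ (Fin r → ℂ), ∀ j g, ∃ μ : ℂ, (ρ g).1 *ᵥ b j = μ • b j

end Vale.Agent.Lib.P002
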