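import Mathlib
import Vale.Agent.Lib.P002.Defs

/-!
Semisimple representations of commutative groups are sums of characters, and conversely.
-/

namespace Vale.Agent.Lib.P002

open Matrix Module

variable {Γ : Type*} {r : ℕ}

section general
variable [Group Γ]

/-- common eigenvector -/
def JointEig (ρ : Γ →* SLC r) (v : Fin r → ℂ) : Prop := ∀ g, ∃ μ : ℂ, (ρ g).1 *ᵥ v = μ • v

theorem isInvariant_span_jointEig (ρ : Γ →* SLC r) (E : Set (Fin r → ℂ))
    (hE : ∀ v ∈ E, JointEig ρ v) : IsInvariant ρ (Submodule.span ℂ E) := by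
  intro g v hv
  induction hv using Submodule.span_induction with
  | mem x hx =>
    obtain ⟨μ, hμ⟩ := hE x hx g
    rw [hμ]
    exact Submodule.smul_mem _ _ (Submodule.subset_span hx)
  | zero => simp
  | add x y _ _ hx hy =>
    rw [Matrix.mulVec_add]
    exact Submodule.add_mem _ hx hy
  | smul a x _ hx =>
    rw [Matrix.mulVec_smul]
    exact Submodule.smul_mem _ _ hx

/-- Any subspace has a complement spanned by a subset of a given basis. -/
theorem exists_isCompl_span_image (b : Basis (Fin r) ℂ (Fin r → ℂ))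
    (W : Submodule ℂ (Fin r → ℂ)) :
    ∃ J : Set (Fin r), IsCompl W (Submodule.span ℂ (b '' J)) := by
  classical
  have hfin : {J : Set (Fin r) | Disjoint W (Submodule.span ℂ (b '' J))}.Finite := Set.toFinite _
  have hne : {J : Set (Fin r) | Disjoint W (Submodule.span ℂ (b '' J))}.Nonempty :=
    ⟨∅, by simp⟩
  obtain ⟨J, hJ⟩ := hfin.exists_maximal hne
  refine ⟨J, hJ.prop, ?_⟩
  rw [codisjoint_iff, eq_top_iff, ← b.span_eq, Submodule.span_le]
  rintro _ ⟨j, rfl⟩
  by_cases hj : j ∈ J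
  · exact Submodule.mem_sup_right (Submodule.subset_span ⟨j, hj, rfl⟩)
  · have hnot : ¬ Disjoint W (Submodule.span ℂ (b '' (insert j J))) := by
      intro hd
      have := hJ.le_of_ge (y := insert j J) hd (Set.subset_insert j J)
      exact hj (this (Set.mem_insert j J))
    rw [Submodule.disjoint_def] at hnot
    push Not at hnot
    obtain ⟨w, hwW, hw, hw0⟩ := hnot
    rw [Set.image_insert_eq, Submodule.mem_span_insert] at hw
    obtain ⟨c, v, hv, rfl⟩ := hw
    have hc : c ≠ 0 := by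
      rintro rfl
      apply hw0
      have hd := hJ.prop
      rw [Set.mem_ofPred_eq, Submodule.disjoint_def] at hd
      simp only [zero_smul, zero_add] at hwW ⊢
      exact hd v hwW hv
    have : b j = c⁻¹ • (c • b j + v) + (-(c⁻¹ • v)) := by
      rw [smul_add, smul_smul, inv_mul_cancel₀ hc, one_smul]
      abel
    show b j ∈ W ⊔ Submodule.span ℂ (b '' J)
    rw [this]
    exact Submodule.add_mem_sup (Submodule.smul_mem _ _ hwW)
      (Submodule.neg_mem _ (Submodule.smul_mem _ _ hv))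

theorem IsSumOfCharacters.isSemisimpleRep {ρ : Γ →* SLC r} (h : IsSumOfCharacters ρ) :
    IsSemisimpleRep ρ := by
  obtain ⟨b, hb⟩ := h
  intro W _
  obtain ⟨J, hJ⟩ := exists_isCompl_span_image b W
  refine ⟨_, ?_, hJ⟩
  apply isInvariant_span_jointEig
  rintro _ ⟨j, _, rfl⟩
  exact hb j

/-- A spanning set contains a basis indexed by `Fin r`. -/
theorem exists_basis_subset (E : Set (Fin r → ℂ)) (hE : Submodule.span ℂ E = ⊤) :
    ∃ b : Basis (Fin r) ℂ (Fin r → ℂ), ∀ j, b j ∈ E := by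
  classical
  let b0 := Basis.ofSpan (K := ℂ) (s := E) (le_of_eq hE.symm)
  have hsub : Set.range b0 ⊆ E := Basis.ofSpan_subset (K := ℂ) (s := E) (le_of_eq hE.symm)
  have : Finite ((linearIndepOn_empty ℂ id).extend (Set.empty_subset E)) :=
    Module.Finite.finite_basis b0
  have : Fintype ((linearIndepOn_empty ℂ id).extend (Set.empty_subset E)) := Fintype.ofFinite _
  have hcard : Fintype.card ((linearIndepOn_empty ℂ id).extend (Set.empty_subset E)) = r := by
    rw [← Module.finrank_eq_card_basis b0]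
    simp
  let e := Fintype.equivFinOfCardEq hcard
  refine ⟨b0.reindex e, fun j => ?_⟩
  rw [Basis.reindex_apply]
  exact hsub ⟨_, rfl⟩

end general

section comm
variable [CommGroup Γ]

theorem exists_jointEig (ρ : Γ →* SLC r) (W : Submodule ℂ (Fin r → ℂ)) (hW : IsInvariant ρ W)
    (hW0 : W ≠ ⊥) : ∃ v ∈ W, v ≠ 0 ∧ JointEig ρ v := by
  classical
  -- minimal nonzero invariant subspace
  let Pn : ℕ → Prop := fun n => ∃ U : Submodule ℂ (Fin r → ℂ), U ≤ W ∧ IsInvariant ρ U ∧ U ≠ ⊥ ∧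
    finrank ℂ U = n
  have hex : ∃ n, Pn n := ⟨_, W, le_rfl, hW, hW0, rfl⟩
  obtain ⟨U, hUW, hU, hU0, hUn⟩ := Nat.find_spec hex
  have hmin : ∀ U' : Submodule ℂ (Fin r → ℂ), U' ≤ W → IsInvariant ρ U' → U' ≠ ⊥ →
      finrank ℂ U ≤ finrank ℂ U' := by
    intro U' h1 h2 h3
    rw [hUn]
    exact Nat.find_min' hex ⟨U', h1, h2, h3, rfl⟩
  have hscal : ∀ g, ∃ μ : ℂ, ∀ v ∈ U, (ρ g).1 *ᵥ v = μ • v := by
    intro g
    let T : (Fin r → ℂ) →ₗ[ℂ] (Fin r → ℂ) := (ρ g).1.mulVecLin
    have hT : ∀ v ∈ U, T v ∈ U := fun v hv => hU g v hv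
    have : Nontrivial U := Submodule.nontrivial_iff_ne_bot.mpr hU0
    obtain ⟨μ, hμ⟩ := Module.End.exists_eigenvalue (T.restrict hT)
    obtain ⟨u, hu⟩ := hμ.exists_hasEigenvector
    have hu1 : T u.1 = μ • u.1 := by
      have := hu.apply_eq_smul
      exact congrArg Subtype.val this
    have hu0 : u.1 ≠ 0 := fun h => hu.2 (Subtype.ext h)
    let U' : Submodule ℂ (Fin r → ℂ) := U ⊓ LinearMap.ker (T - μ • LinearMap.id)
    have hU'mem : ∀ v, v ∈ U' ↔ v ∈ U ∧ T v = μ • v := by
      intro v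
      simp only [U', Submodule.mem_inf, LinearMap.mem_ker, LinearMap.sub_apply,
        LinearMap.smul_apply, LinearMap.id_apply, sub_eq_zero]
    have hU'inv : IsInvariant ρ U' := by
      intro h v hv
      rw [hU'mem] at hv ⊢
      refine ⟨hU h v hv.1, ?_⟩
      have hcomm : (ρ g).1 * (ρ h).1 = (ρ h).1 * (ρ g).1 := by
        have h1 : ρ g * ρ h = ρ h * ρ g := by rw [← map_mul, ← map_mul, mul_comm]
        exact congrArg Subtype.val h1
      show (ρ g).1 *ᵥ ((ρ h).1 *ᵥ v) = μ • ((ρ h).1 *ᵥ v)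
      rw [Matrix.mulVec_mulVec, hcomm, ← Matrix.mulVec_mulVec]
      have : (ρ g).1 *ᵥ v = μ • v := hv.2
      rw [this, Matrix.mulVec_smul]
    have hU'0 : U' ≠ ⊥ := by
      intro hbot
      have : u.1 ∈ U' := (hU'mem _).2 ⟨u.2, hu1⟩
      rw [hbot, Submodule.mem_bot] at this
      exact hu0 this
    have hle : U' ≤ U := inf_le_left
    have heq : U' = U := Submodule.eq_of_le_of_finrank_le hle (hmin U' (hle.trans hUW) hU'inv hU'0)
    refine ⟨μ, fun v hv => ?_⟩
    rw [← heq] at hv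
    exact ((hU'mem v).1 hv).2
  obtain ⟨v, hv, hv0⟩ := Submodule.exists_mem_ne_zero_of_ne_bot hU0
  exact ⟨v, hUW hv, hv0, fun g => (hscal g).imp fun μ h => h v hv⟩

theorem IsSemisimpleRep.isSumOfCharacters {ρ : Γ →* SLC r} (h : IsSemisimpleRep ρ) :
    IsSumOfCharacters ρ := by
  have hinv := isInvariant_span_jointEig ρ {v | JointEig ρ v} (fun v hv => hv)
  obtain ⟨W', hW', hc⟩ := h _ hinv
  have hbot : W' = ⊥ := by
    by_contra hne
    obtain ⟨v, hv, hv0, hj⟩ := exists_jointEig ρ W' hW' hne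
    have h1 : v ∈ Submodule.span ℂ {v | JointEig ρ v} := Submodule.subset_span hj
    have := (Submodule.disjoint_def.mp hc.disjoint) v h1 hv
    exact hv0 this
  have htop : Submodule.span ℂ {v | JointEig ρ v} = ⊤ := by
    have := hc.sup_eq_top
    rwa [hbot, sup_bot_eq] at this
  obtain ⟨b, hb⟩ := exists_basis_subset _ htop
  exact ⟨b, fun j g => hb j g⟩

theorem isSemisimpleRep_iff (ρ : Γ →* SLC r) : IsSemisimpleRep ρ ↔ IsSumOfCharacters ρ :=
  ⟨fun h => h.isSumOfCharacters, fun h => h.isSemisimpleRep⟩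

end comm

end Vale.Agent.Lib.P002
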