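import Mathlib
import Vale.Agent.Lib.P002.Defs
import Vale.Agent.Lib.P002.Closure
import Vale.Agent.Lib.P002.Split

/-!
Conjugation invariance of the Zariski closure of the integral points.
-/

namespace Vale.Agent.Lib.P002

open Matrix Module MvPolynomial

set_option linter.unusedSectionVars false

variable {Γ : Type*} [Group Γ] {r s : ℕ}

abbrev Idx (Γ : Type*) (r : ℕ) := Γ × Fin r × Fin r
abbrev Mat (r : ℕ) := Matrix (Fin r) (Fin r) ℂ

def mat (x : Idx Γ r → ℂ) (g : Γ) : Mat r := Matrix.of fun i j => x (g, i, j)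
def ofMat (A : Γ → Mat r) : Idx Γ r → ℂ := fun p => A p.1 p.2.1 p.2.2

@[simp] theorem mat_ofMat (A : Γ → Mat r) (g : Γ) : mat (ofMat A) g = A g := by
  ext i j; rfl

theorem coords_eq (ρ : Γ →* SLC r) : coords ρ = ofMat fun g => (ρ g).1 := rfl

def conjPt (Q Q' : Mat r) (x : Idx Γ r → ℂ) : Idx Γ r → ℂ := ofMat fun g => Q * mat x g * Q'

def GLConj (A B : Mat r) : Prop := ∃ Q : Mat r, IsUnit Q.det ∧ A * Q = Q * B

def SplitBy (ρ : Γ →* SLC r) (P : Mat r) (χ : Fin r → Γ →* ℂˣ) : Prop :=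
  IsUnit P.det ∧ ∀ g, (ρ g).1 * P = P * diagonal fun j => (χ j g : ℂ)

/-- ring of integers of `L` as a subring of `ℂ` -/
noncomputable def OL (L : IntermediateField ℚ ℂ) : Subring ℂ := L.toSubring ⊓ (integralClosure ℤ ℂ).toSubring

theorem mem_OL {L : IntermediateField ℚ ℂ} {x : ℂ} : x ∈ OL L ↔ x ∈ L ∧ IsIntegral ℤ x := by
  simp only [OL, Subring.mem_inf]
  exact Iff.rfl

theorem isIntegralRep_iff {L : IntermediateField ℚ ℂ} {ρ : Γ →* SLC r} :
    IsIntegralRep L ρ ↔ ∀ g i j, (ρ g).1 i j ∈ OL L := by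
  simp only [IsIntegralRep, mem_OL]

theorem mul_entries_mem {R : Subring ℂ} {A B : Mat r} (hA : ∀ i j, A i j ∈ R)
    (hB : ∀ i j, B i j ∈ R) : ∀ i j, (A * B) i j ∈ R := by
  intro i j
  rw [Matrix.mul_apply]
  exact Subring.sum_mem _ fun k _ => Subring.mul_mem _ (hA i k) (hB k j)

theorem GLConj.trans {A B C : Mat r} (h1 : GLConj A B) (h2 : GLConj B C) : GLConj A C := by
  obtain ⟨Q, hQ, h⟩ := h1
  obtain ⟨R, hR, h'⟩ := h2
  refine ⟨Q * R, by rw [det_mul]; exact hQ.mul hR, ?_⟩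
  rw [← mul_assoc, h, mul_assoc, h', mul_assoc]

theorem GLConj.symm {A B : Mat r} (h1 : GLConj A B) : GLConj B A := by
  obtain ⟨Q, hQ, h⟩ := h1
  refine ⟨Q⁻¹, by rw [det_nonsing_inv]; exact hQ.ringInverse, ?_⟩
  have h1 : Q⁻¹ * Q = 1 := Matrix.nonsing_inv_mul Q hQ
  have h2 : Q * Q⁻¹ = 1 := Matrix.mul_nonsing_inv Q hQ
  calc B * Q⁻¹ = (Q⁻¹ * Q) * B * Q⁻¹ := by rw [h1, one_mul]
    _ = Q⁻¹ * (Q * B) * Q⁻¹ := by simp only [mul_assoc]
    _ = Q⁻¹ * (A * Q) * Q⁻¹ := by rw [h]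
    _ = Q⁻¹ * A * (Q * Q⁻¹) := by simp only [mul_assoc]
    _ = Q⁻¹ * A := by rw [h2, mul_one]

theorem isConj_iff_GLConj (A B : SLC r) : IsConj A B ↔ GLConj A.1 B.1 := by
  constructor
  · intro h
    obtain ⟨c, hc⟩ := isConj_iff.mp h
    refine ⟨(c⁻¹).1, by rw [(c⁻¹).2]; exact isUnit_one, ?_⟩
    have : A * c⁻¹ = c⁻¹ * B := by
      rw [← hc]; group
    exact congrArg Subtype.val this
  · rintro ⟨Q, hQ, h⟩
    rcases Nat.eq_zero_or_pos r with rfl | hr
    · have : A = B := by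
        ext i j
        exact i.elim0
      rw [this]
    · obtain ⟨l, hl⟩ := IsAlgClosed.exists_pow_nat_eq (Q.det)⁻¹ hr
      have hdet : (l • Q).det = 1 := by
        rw [det_smul, Fintype.card_fin, hl]
        exact inv_mul_cancel₀ hQ.ne_zero
      let c : SLC r := ⟨l • Q, hdet⟩
      have hc : A * c = c * B := by
        apply Subtype.ext
        show A.1 * (l • Q) = (l • Q) * B.1
        rw [mul_smul_comm, smul_mul_assoc, h]
      rw [isConj_iff]
      refine ⟨c⁻¹, ?_⟩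
      rw [inv_inv, mul_assoc, hc, ← mul_assoc, inv_mul_cancel, one_mul]

/-- conjugate of a representation by an invertible matrix -/
def conjHom (Q Q' : Mat r) (h : Q * Q' = 1) (ρ : Γ →* SLC r) : Γ →* SLC r where
  toFun g := ⟨Q * (ρ g).1 * Q', by
    rw [det_mul, det_mul, (ρ g).2, mul_one, ← det_mul, h, det_one]⟩
  map_one' := by
    apply Subtype.ext
    simp [h]
  map_mul' a b := by
    apply Subtype.ext
    have h' : Q' * Q = 1 := mul_eq_one_comm.mp h
    show Q * (ρ (a * b)).1 * Q' = (Q * (ρ a).1 * Q') * (Q * (ρ b).1 * Q')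
    rw [map_mul]
    show Q * ((ρ a).1 * (ρ b).1) * Q' = (Q * (ρ a).1 * Q') * (Q * (ρ b).1 * Q')
    calc Q * ((ρ a).1 * (ρ b).1) * Q' = Q * (ρ a).1 * 1 * (ρ b).1 * Q' := by
          simp only [mul_assoc, one_mul]
      _ = Q * (ρ a).1 * (Q' * Q) * (ρ b).1 * Q' := by rw [h']
      _ = _ := by simp only [mul_assoc]

theorem conjHom_apply (Q Q' : Mat r) (h : Q * Q' = 1) (ρ : Γ →* SLC r) (g : Γ) :
    (conjHom Q Q' h ρ g).1 = Q * (ρ g).1 * Q' := rfl

/-- the set of integral points -/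
def Sset (L : IntermediateField ℚ ℂ) (γ : Fin s → Γ) (c : Fin s → SLC r) :
    Set (Idx Γ r → ℂ) :=
  {x | ∃ ρ : Γ →* SLC r, (∃ P χ, SplitBy ρ P χ) ∧ (∀ i, GLConj (ρ (γ i)).1 (c i).1) ∧
    IsIntegralRep L ρ ∧ x = coords ρ}

theorem conj_maps_S (L : IntermediateField ℚ ℂ) (γ : Fin s → Γ) (c : Fin s → SLC r)
    (Q Q' : Mat r) (h : Q * Q' = 1) (hQ : ∀ i j, Q i j ∈ OL L) (hQ' : ∀ i j, Q' i j ∈ OL L) :
    ∀ y ∈ Sset L γ c, conjPt Q Q' y ∈ Sset L γ c := by
  rintro _ ⟨ρ, ⟨P, χ, hP, hPχ⟩, hγ, hint, rfl⟩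
  have h' : Q' * Q = 1 := mul_eq_one_comm.mp h
  have hQdet : IsUnit Q.det := by
    have : Q.det * Q'.det = 1 := by rw [← det_mul, h, det_one]
    exact IsUnit.of_mul_eq_one _ this
  refine ⟨conjHom Q Q' h ρ, ⟨Q * P, χ, by rw [det_mul]; exact hQdet.mul hP, ?_⟩, ?_, ?_, ?_⟩
  · intro g
    rw [conjHom_apply]
    calc Q * (ρ g).1 * Q' * (Q * P) = Q * (ρ g).1 * (Q' * Q) * P := by simp only [mul_assoc]
      _ = Q * ((ρ g).1 * P) := by rw [h', mul_one, mul_assoc]
      _ = _ := by rw [hPχ g, mul_assoc]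
  · intro i
    refine GLConj.trans ⟨Q, hQdet, ?_⟩ (hγ i)
    rw [conjHom_apply, mul_assoc, h', mul_one]
  · rw [isIntegralRep_iff] at hint ⊢
    intro g
    rw [conjHom_apply]
    exact mul_entries_mem (mul_entries_mem hQ (hint g)) hQ'
  · rfl

theorem conjPt_mem_zcl {S T : Set (Idx Γ r → ℂ)} (Q Q' : Mat r)
    (h : ∀ y ∈ S, conjPt Q Q' y ∈ T) : ∀ x ∈ zcl S, conjPt Q Q' x ∈ zcl T := by
  apply zcl_polyMap (conjPt Q Q')
    (fun p => ∑ a, ∑ b, C (Q p.2.1 a * Q' b p.2.2) * X (p.1, a, b)) _ h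
  rintro x ⟨g, i, j⟩
  simp only [conjPt, ofMat, Matrix.mul_apply, mat, Matrix.of_apply, map_sum, map_mul, eval_C,
    eval_X, Finset.sum_mul]
  rw [Finset.sum_comm]
  apply Finset.sum_congr rfl
  intro a _
  apply Finset.sum_congr rfl
  intro b _
  ring

theorem conjPt_conjPt (A A' B B' : Mat r) (x : Idx Γ r → ℂ) :
    conjPt A A' (conjPt B B' x) = conjPt (A * B) (B' * A') x := by
  simp only [conjPt, mat_ofMat, mul_assoc]

theorem transvection_conj (a b : Fin r) (t : ℂ) (M : Mat r) :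
    transvection a b t * M * transvection a b (-t) =
      M + t • (single a b 1 * M - M * single a b 1) - (t ^ 2) • (single a b 1 * M * single a b 1) := by
  have h1 : ∀ z : ℂ, transvection a b z = 1 + z • single a b (1 : ℂ) := by
    intro z
    rw [transvection, smul_single, smul_eq_mul, mul_one]
  rw [h1, h1]
  simp only [add_mul, mul_add, one_mul, mul_one, Matrix.smul_mul, Matrix.mul_smul, smul_smul,
    neg_smul, smul_sub, Matrix.mul_neg]
  rw [pow_two]
  abel

theorem transvection_stable (L : IntermediateField ℚ ℂ) (γ : Fin s → Γ) (c : Fin s → SLC r)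
    (a b : Fin r) (hab : a ≠ b) (x : Idx Γ r → ℂ) (hx : x ∈ zcl (Sset L γ c)) (t : ℂ) :
    conjPt (transvection a b t) (transvection a b (-t)) x ∈ zcl (Sset L γ c) := by
  refine zcl_lineParam (fun t => conjPt (transvection a b t) (transvection a b (-t)) x)
    (fun p => Polynomial.C (mat x p.1 p.2.1 p.2.2)
      + Polynomial.C ((single a b (1 : ℂ) * mat x p.1 - mat x p.1 * single a b (1 : ℂ) : Mat r)
          p.2.1 p.2.2) * Polynomial.X
      - Polynomial.C ((single a b (1 : ℂ) * mat x p.1 * single a b (1 : ℂ) : Mat r) p.2.1 p.2.2)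
        * Polynomial.X ^ 2)
    ?_ (Set.range (fun n : ℤ => (n : ℂ))) ?_ ?_ t
  · rintro t ⟨g, i, j⟩
    simp only [conjPt, ofMat]
    rw [transvection_conj]
    simp only [Matrix.add_apply, Matrix.sub_apply, Matrix.smul_apply, smul_eq_mul,
      Polynomial.eval_add, Polynomial.eval_sub, Polynomial.eval_mul, Polynomial.eval_C,
      Polynomial.eval_X, Polynomial.eval_pow]
    ring
  · exact Set.infinite_range_of_injective Int.cast_injective
  · rintro _ ⟨n, rfl⟩
    refine conjPt_mem_zcl _ _ (conj_maps_S L γ c _ _ ?_ ?_ ?_) x hx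
    · rw [transvection_mul_transvection_same _ _ hab]
      simp
    · intro i j
      rw [transvection, Matrix.add_apply, Matrix.one_apply, Matrix.single_apply]
      refine Subring.add_mem _ ?_ ?_
      · split_ifs
        · exact Subring.one_mem _
        · exact Subring.zero_mem _
      · split_ifs
        · exact intCast_mem _ n
        · exact Subring.zero_mem _
    · intro i j
      rw [transvection, Matrix.add_apply, Matrix.one_apply, Matrix.single_apply]
      refine Subring.add_mem _ ?_ ?_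
      · split_ifs
        · exact Subring.one_mem _
        · exact Subring.zero_mem _
      · split_ifs
        · exact Subring.neg_mem _ (intCast_mem _ n)
        · exact Subring.zero_mem _

end Vale.Agent.Lib.P002
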