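import Mathlib
import Vale.Agent.Lib.P002.Core1

/-!
Conjugation by diagonal matrices and by arbitrary invertible matrices.
-/

namespace Vale.Agent.Lib.P002

open Matrix Module MvPolynomial

set_option linter.unusedSectionVars false

variable {Γ : Type*} [Group Γ] {r s : ℕ}

/-- scaling weights of conjugation by a diagonal matrix -/
def wconj : (Fin r → ℂˣ) →* (Idx Γ r → ℂˣ) where
  toFun d := fun p => d p.2.1 * (d p.2.2)⁻¹
  map_one' := by
    funext p
    simp
  map_mul' a b := by
    funext p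
    simp only [Pi.mul_apply, mul_inv]
    exact mul_mul_mul_comm _ _ _ _

theorem wconj_apply (d : Fin r → ℂˣ) (p : Idx Γ r) : wconj d p = d p.2.1 * (d p.2.2)⁻¹ := rfl

theorem conjPt_diagonal (d : Fin r → ℂˣ) (x : Idx Γ r → ℂ) :
    conjPt (diagonal fun i => (d i : ℂ)) (diagonal fun i => (((d i)⁻¹ : ℂˣ) : ℂ)) x =
      scale (wconj d) x := by
  funext ⟨g, i, j⟩
  simp only [conjPt, ofMat, scale, wconj_apply, Matrix.mul_diagonal, Matrix.diagonal_mul, mat,
    Matrix.of_apply, Units.val_mul]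
  ring

theorem zpow_mem_OL {L : IntermediateField ℚ ℂ} {u : ℂˣ} (hu : (u : ℂ) ∈ OL L)
    (hu' : ((u⁻¹ : ℂˣ) : ℂ) ∈ OL L) (n : ℤ) : ((u ^ n : ℂˣ) : ℂ) ∈ OL L := by
  obtain ⟨k, rfl | rfl⟩ := n.eq_nat_or_neg
  · rw [zpow_natCast, Units.val_pow_eq_pow_val]
    exact Subring.pow_mem _ hu _
  · rw [_root_.zpow_neg, zpow_natCast, ← inv_pow, Units.val_pow_eq_pow_val]
    exact Subring.pow_mem _ hu' _

theorem wconj_mem_stab (L : IntermediateField ℚ ℂ) (γ : Fin s → Γ) (c : Fin s → SLC r)
    (u : ℂˣ) (hu : (u : ℂ) ∈ OL L) (hu' : ((u⁻¹ : ℂˣ) : ℂ) ∈ OL L)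
    (hinj : Function.Injective fun k : ℕ => u ^ k) (d : Fin r → ℂˣ) :
    wconj d ∈ stab (Sset L γ c) := by
  classical
  have key : ∀ (a : Fin r) (t : ℂˣ), wconj (Pi.mulSingle a t) ∈ stab (Sset L γ c) := by
    intro a t
    have hform : ∀ z : ℂˣ, (wconj (Pi.mulSingle a z) : Idx Γ r → ℂˣ) =
        fun p => z ^ ((if p.2.1 = a then (1 : ℤ) else 0) - (if p.2.2 = a then (1 : ℤ) else 0)) := by
      intro z
      funext ⟨g, i, j⟩
      simp only [wconj_apply, Pi.mulSingle_apply]
      split_ifs <;> simp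
    rw [hform]
    refine zpow_mem_stab _ (Set.range fun k : ℕ => u ^ k) (Set.infinite_range_of_injective hinj)
      ?_ t
    rintro _ ⟨k, rfl⟩
    simp only []
    rw [← hform]
    apply mem_stab_of_maps
    intro y hy
    rw [← conjPt_diagonal]
    refine conj_maps_S L γ c _ _ ?_ ?_ ?_ y hy
    · rw [diagonal_mul_diagonal]
      simp
    · intro i j
      rw [diagonal_apply]
      split_ifs
      · rw [Pi.mulSingle_apply]
        split_ifs
        · rw [Units.val_pow_eq_pow_val]
          exact Subring.pow_mem _ hu _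
        · exact Subring.one_mem _
      · exact Subring.zero_mem _
    · intro i j
      rw [diagonal_apply]
      split_ifs
      · rw [Pi.mulSingle_apply]
        split_ifs
        · rw [← inv_pow, Units.val_pow_eq_pow_val]
          exact Subring.pow_mem _ hu' _
        · simp only [inv_one, Units.val_one]
          exact Subring.one_mem _
      · exact Subring.zero_mem _
  rw [← Finset.univ_prod_mulSingle d, map_prod]
  exact Submonoid.prod_mem _ fun a _ => key a (d a)

/-- The closure of the integral points is stable under conjugation by `GL_r(ℂ)`. -/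
theorem conj_stable (L : IntermediateField ℚ ℂ) (γ : Fin s → Γ) (c : Fin s → SLC r)
    (u : ℂˣ) (hu : (u : ℂ) ∈ OL L) (hu' : ((u⁻¹ : ℂˣ) : ℂ) ∈ OL L)
    (hinj : Function.Injective fun k : ℕ => u ^ k) (Q : Mat r) (hQ : Q.det ≠ 0) :
    ∀ x ∈ zcl (Sset L γ c), conjPt Q Q⁻¹ x ∈ zcl (Sset L γ c) := by
  classical
  refine Matrix.diagonal_transvection_induction_of_det_ne_zero
    (fun Q => ∀ x ∈ zcl (Sset L γ c), conjPt Q Q⁻¹ x ∈ zcl (Sset L γ c)) Q hQ ?_ ?_ ?_
  · intro D hD x hx
    rw [det_diagonal] at hD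
    have hD0 : ∀ i, D i ≠ 0 := fun i => by
      intro h0
      exact hD (Finset.prod_eq_zero (Finset.mem_univ i) h0)
    let d : Fin r → ℂˣ := fun i => Units.mk0 (D i) (hD0 i)
    have h1 : diagonal D = diagonal fun i => (d i : ℂ) := rfl
    have h2 : (diagonal D)⁻¹ = diagonal fun i => (((d i)⁻¹ : ℂˣ) : ℂ) := by
      apply Matrix.inv_eq_right_inv
      rw [h1, diagonal_mul_diagonal]
      simp
    rw [h2, h1, conjPt_diagonal]
    exact wconj_mem_stab L γ c u hu hu' hinj d x hx
  · intro t x hx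
    have h2 : (t.toMatrix)⁻¹ = transvection t.i t.j (-t.c) := by
      apply Matrix.inv_eq_right_inv
      rw [TransvectionStruct.toMatrix, transvection_mul_transvection_same _ _ t.hij]
      simp
    rw [h2]
    exact transvection_stable L γ c t.i t.j t.hij x hx t.c
  · intro A B _ _ hA hB x hx
    rw [Matrix.mul_inv_rev, ← conjPt_conjPt]
    exact hA _ (hB _ hx)

end Vale.Agent.Lib.P002
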