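import Mathlib
import Vale.Agent.Lib.P002.Core2

/-!
Twisting diagonal representations by characters.
-/

namespace Vale.Agent.Lib.P002

open Matrix Module MvPolynomial

set_option linter.unusedSectionVars false

variable {Γ : Type*} [Group Γ] {r s : ℕ}

/-- the point of the ambient space given by a tuple of characters -/
def diagPt (χ : Fin r → Γ →* ℂˣ) : Idx Γ r → ℂ := ofMat fun g => diagonal fun j => (χ j g : ℂ)

/-- integral diagonal points -/
def SD (L : IntermediateField ℚ ℂ) (γ : Fin s → Γ) (c : Fin s → SLC r) : Set (Idx Γ r → ℂ) :=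
  {x | ∃ χ : Fin r → Γ →* ℂˣ, (∀ g, ∏ j, χ j g = 1) ∧
    (∀ i, GLConj (diagonal fun j => (χ j (γ i) : ℂ)) (c i).1) ∧
    (∀ j g, (χ j g : ℂ) ∈ OL L) ∧ x = diagPt χ}

/-- scaling weights of a twist -/
def wtw : (Fin r → Γ →* ℂˣ) →* (Idx Γ r → ℂˣ) where
  toFun θ := fun p => θ p.2.1 p.1
  map_one' := rfl
  map_mul' _ _ := rfl

theorem wtw_apply (θ : Fin r → Γ →* ℂˣ) (p : Idx Γ r) : wtw θ p = θ p.2.1 p.1 := rfl

theorem scale_wtw (θ χ : Fin r → Γ →* ℂˣ) : scale (wtw θ) (diagPt χ) = diagPt (θ * χ) := by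
  funext ⟨g, i, j⟩
  simp only [scale, wtw_apply, diagPt, ofMat, diagonal_apply]
  split_ifs with h
  · simp
  · simp

/-- the character `g ↦ t ^ m(g)` -/
def phi (m : Γ →* Multiplicative ℤ) : ℂˣ →* (Γ →* ℂˣ) where
  toFun t := (zpowersHom ℂˣ t).comp m
  map_one' := by
    ext g
    simp
  map_mul' a b := by
    ext g
    simp [mul_zpow]

theorem phi_apply (m : Γ →* Multiplicative ℤ) (t : ℂˣ) (g : Γ) :
    phi m t g = t ^ (Multiplicative.toAdd (m g)) := by
  simp [phi]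

/-- componentwise version of `phi` -/
def Phi (m : Γ →* Multiplicative ℤ) : (Fin r → ℂˣ) →* (Fin r → Γ →* ℂˣ) where
  toFun t := fun j => phi m (t j)
  map_one' := by
    funext j
    simp
  map_mul' a b := by
    funext j
    simp

theorem Phi_apply (m : Γ →* Multiplicative ℤ) (t : Fin r → ℂˣ) (j : Fin r) :
    Phi m t j = phi m (t j) := rfl

theorem tw_maps_SD (L : IntermediateField ℚ ℂ) (γ : Fin s → Γ) (c : Fin s → SLC r)
    (θ : Fin r → Γ →* ℂˣ) (h1 : ∀ g, ∏ j, θ j g = 1) (h2 : ∀ i j, θ j (γ i) = 1)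
    (h3 : ∀ j g, (θ j g : ℂ) ∈ OL L) : ∀ y ∈ SD L γ c, scale (wtw θ) y ∈ SD L γ c := by
  rintro _ ⟨χ, hχ1, hχ2, hχ3, rfl⟩
  refine ⟨θ * χ, ?_, ?_, ?_, scale_wtw θ χ⟩
  · intro g
    simp only [Pi.mul_apply, MonoidHom.mul_apply]
    rw [Finset.prod_mul_distrib, h1, hχ1, one_mul]
  · intro i
    simp only [Pi.mul_apply, MonoidHom.mul_apply, h2, one_mul]
    exact hχ2 i
  · intro j g
    simp only [Pi.mul_apply, MonoidHom.mul_apply, Units.val_mul]
    exact Subring.mul_mem _ (h3 j g) (hχ3 j g)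

theorem Phi_pair_mem_stab (L : IntermediateField ℚ ℂ) (γ : Fin s → Γ) (c : Fin s → SLC r)
    (u : ℂˣ) (hu : (u : ℂ) ∈ OL L) (hu' : ((u⁻¹ : ℂˣ) : ℂ) ∈ OL L)
    (hinj : Function.Injective fun k : ℕ => u ^ k)
    (m : Γ →* Multiplicative ℤ) (hm : ∀ i, m (γ i) = 1) (j0 j1 : Fin r) (t : ℂˣ) :
    wtw (Phi m (Pi.mulSingle j0 t * Pi.mulSingle j1 t⁻¹)) ∈ stab (SD L γ c) := by
  classical
  have hform : ∀ z : ℂˣ, (wtw (Phi m (Pi.mulSingle j0 z * Pi.mulSingle j1 z⁻¹)) : Idx Γ r → ℂˣ) =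
      fun p => z ^ (((if p.2.1 = j0 then (1 : ℤ) else 0) - (if p.2.1 = j1 then (1 : ℤ) else 0))
        * Multiplicative.toAdd (m p.1)) := by
    intro z
    funext ⟨g, i, j⟩
    simp only [wtw_apply, Phi_apply, phi_apply, Pi.mul_apply, Pi.mulSingle_apply]
    rw [_root_.zpow_mul]
    congr 1
    split_ifs <;> simp
  rw [hform]
  refine zpow_mem_stab _ (Set.range fun k : ℕ => u ^ k) (Set.infinite_range_of_injective hinj)
    ?_ t
  rintro _ ⟨k, rfl⟩
  simp only []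
  rw [← hform]
  apply mem_stab_of_maps
  apply tw_maps_SD
  · intro g
    simp only [Phi_apply, phi_apply, Pi.mul_apply]
    rw [Finset.prod_zpow, Finset.prod_mul_distrib, Fintype.prod_pi_mulSingle', Fintype.prod_pi_mulSingle']
    simp
  · intro i j
    simp [Phi_apply, phi_apply, hm]
  · intro j g
    simp only [Phi_apply, phi_apply, Pi.mul_apply, Pi.mulSingle_apply]
    split_ifs
    · simp only [mul_inv_cancel, _root_.one_zpow, Units.val_one]
      exact Subring.one_mem _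
    · rw [mul_one, ← zpow_natCast, ← _root_.zpow_mul]
      exact zpow_mem_OL hu hu' _
    · rw [one_mul, ← zpow_natCast, ← _root_.zpow_neg, ← _root_.zpow_mul]
      exact zpow_mem_OL hu hu' _
    · simp only [mul_one, _root_.one_zpow, Units.val_one]
      exact Subring.one_mem _

theorem Phi_mem_stab (L : IntermediateField ℚ ℂ) (γ : Fin s → Γ) (c : Fin s → SLC r)
    (u : ℂˣ) (hu : (u : ℂ) ∈ OL L) (hu' : ((u⁻¹ : ℂˣ) : ℂ) ∈ OL L)
    (hinj : Function.Injective fun k : ℕ => u ^ k)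
    (m : Γ →* Multiplicative ℤ) (hm : ∀ i, m (γ i) = 1) (t : Fin r → ℂˣ) (ht : ∏ j, t j = 1) :
    wtw (Phi m t) ∈ stab (SD L γ c) := by
  classical
  rcases isEmpty_or_nonempty (Fin r) with he | ⟨⟨j1⟩⟩
  · have : t = 1 := Subsingleton.elim _ _
    rw [this, map_one, map_one]
    exact Submonoid.one_mem _
  · have hdec : t = ∏ j, (Pi.mulSingle j (t j) * Pi.mulSingle j1 (t j)⁻¹) := by
      rw [Finset.prod_mul_distrib, Finset.univ_prod_mulSingle]
      have : ∏ j, (Pi.mulSingle j1 (t j)⁻¹ : Fin r → ℂˣ) = 1 := by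
        have h1 := map_prod (MonoidHom.mulSingle (fun _ : Fin r => ℂˣ) j1) (fun j => (t j)⁻¹)
          Finset.univ
        simp only [MonoidHom.mulSingle_apply] at h1
        rw [← h1, Finset.prod_inv_distrib, ht, inv_one, Pi.mulSingle_one]
      rw [this, mul_one]
    rw [hdec, map_prod, map_prod]
    exact Submonoid.prod_mem _ fun j _ => Phi_pair_mem_stab L γ c u hu hu' hinj m hm j j1 (t j)

end Vale.Agent.Lib.P002
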