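import Mathlib
import Vale.Agent.Lib.P002.Core3

/-!
The free part of the abelianisation modulo the boundary elements.
-/

namespace Vale.Agent.Lib.P002

open Matrix Module MvPolynomial

set_option linter.unusedSectionVars false

variable {Γ : Type*} [Group Γ] {r s : ℕ}

theorem exists_free_data [Group.FG Γ] (γ : Fin s → Γ) :
    ∃ (κ : Type) (_ : Fintype κ) (m : κ → Γ →* Multiplicative ℤ) (e : κ → Γ) (N : ℕ), 0 < N ∧
      (∀ k i, m k (γ i) = 1) ∧
      ∀ (χ : Γ →* ℂˣ) (M : ℕ), (∀ i, χ (γ i) ^ M = 1) →
        ∀ g, (χ g * (∏ k, χ (e k) ^ (Multiplicative.toAdd (m k g)))⁻¹) ^ (N * M) = 1 := by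
  classical
  let A := Abelianization Γ
  let H : Subgroup A := Subgroup.closure (Set.range fun i => Abelianization.of (γ i))
  let π : Γ →* A ⧸ H := (QuotientGroup.mk' H).comp Abelianization.of
  have hofsurj : Function.Surjective (Abelianization.of : Γ →* A) :=
    QuotientGroup.mk'_surjective (commutator Γ)
  have hπsurj : Function.Surjective π := (QuotientGroup.mk'_surjective H).comp hofsurj
  have hAfg : Group.FG A := Group.fg_of_surjective hofsurj
  have hAHfg : Group.FG (A ⧸ H) := QuotientGroup.fg H
  have hπγ : ∀ i, π (γ i) = 1 := by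
    intro i
    show (QuotientGroup.mk' H) (Abelianization.of (γ i)) = 1
    rw [QuotientGroup.mk'_apply, QuotientGroup.eq_one_iff]
    exact Subgroup.subset_closure ⟨i, rfl⟩
  obtain ⟨ι, κ, hι, hκ, p, hp, e', ⟨f⟩⟩ :=
    CommGroup.equiv_free_prod_prod_multiplicative_zmod (A ⧸ H)
  have hne : ∀ i, NeZero (p i ^ e' i) := fun i => ⟨pow_ne_zero _ (hp i).ne_zero⟩
  let T := (i : ι) → Multiplicative (ZMod (p i ^ e' i))
  have hTfin : Finite T := inferInstance
  let m : κ → Γ →* Multiplicative ℤ := fun k =>
    (Pi.evalMonoidHom (fun _ : κ => Multiplicative ℤ) k).comp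
      ((MonoidHom.fst (κ → Multiplicative ℤ) T).comp (f.toMonoidHom.comp π))
  have hm : ∀ k g, m k g = (f (π g)).1 k := fun k g => rfl
  choose e he using fun k : κ => hπsurj (f.symm (Pi.mulSingle k (Multiplicative.ofAdd (1 : ℤ)), 1))
  refine ⟨κ, hκ, m, e, Nat.card T, Nat.card_pos, ?_, ?_⟩
  · intro k i
    rw [hm, hπγ, map_one]
    rfl
  · intro χ M hχ g
    -- the M-th power of χ factors through the quotient
    let χM : Γ →* ℂˣ := χ ^ M
    have hker : H ≤ (Abelianization.lift χM).ker := by
      rw [Subgroup.closure_le]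
      rintro _ ⟨i, rfl⟩
      show Abelianization.lift χM (Abelianization.of (γ i)) = 1
      rw [Abelianization.lift_apply_of]
      exact hχ i
    let ψ : A ⧸ H →* ℂˣ := QuotientGroup.lift H (Abelianization.lift χM) hker
    have hψ : ∀ x, ψ (π x) = χ x ^ M := by
      intro x
      show QuotientGroup.lift H (Abelianization.lift χM) hker
        (QuotientGroup.mk' H (Abelianization.of x)) = _
      rw [QuotientGroup.mk'_apply, QuotientGroup.lift_mk, Abelianization.lift_apply_of]
      rfl
    let z : A ⧸ H := π g * (∏ k, π (e k) ^ (Multiplicative.toAdd (m k g)))⁻¹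
    have hfz : (f z).1 = 1 := by
      simp only [z, map_mul, map_inv, map_prod, map_zpow, he, MulEquiv.apply_symm_apply]
      rw [Prod.fst_mul, Prod.fst_inv, Prod.fst_prod]
      simp only [Prod.pow_fst]
      have h1 : ∀ k, (Pi.mulSingle k (Multiplicative.ofAdd (1 : ℤ)) : κ → Multiplicative ℤ) ^
          (Multiplicative.toAdd (m k g)) = Pi.mulSingle k ((f (π g)).1 k) := by
        intro k
        rw [← Pi.mulSingle_zpow, hm]
        congr 1
        rw [← ofAdd_zsmul]
        simp
      simp only [h1]
      rw [Finset.univ_prod_mulSingle, mul_inv_cancel]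
    have hz : z ^ Nat.card T = 1 := by
      apply f.injective
      rw [map_pow, map_one]
      apply Prod.ext
      · rw [Prod.pow_fst, hfz, one_pow]
        rfl
      · rw [Prod.pow_snd]
        exact pow_card_eq_one'
    have h2 : ψ z = (χ g * (∏ k, χ (e k) ^ (Multiplicative.toAdd (m k g)))⁻¹) ^ M := by
      simp only [z, map_mul, map_inv, map_prod, map_zpow, hψ]
      rw [mul_pow, inv_pow, ← Finset.prod_pow]
      congr 2
      apply Finset.prod_congr rfl
      intro k _
      rw [← zpow_natCast, ← zpow_natCast, ← _root_.zpow_mul, ← _root_.zpow_mul, mul_comm]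
    rw [Nat.mul_comm, pow_mul, ← h2, ← map_pow, hz, map_one]

end Vale.Agent.Lib.P002
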