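import Mathlib
import Vale.Agent.Lib.P002.Core4

/-!
Assembly of the density theorem for sums of characters.
-/

namespace Vale.Agent.Lib.P002

open Matrix Module MvPolynomial

set_option linter.unusedSectionVars false

variable {Γ : Type*} [Group Γ] {r s : ℕ}

theorem diagPt_mem_zcl_SD (L : IntermediateField ℚ ℂ) (γ : Fin s → Γ) (c : Fin s → SLC r)
    (u : ℂˣ) (hu : (u : ℂ) ∈ OL L) (hu' : ((u⁻¹ : ℂˣ) : ℂ) ∈ OL L)
    (hinj : Function.Injective fun k : ℕ => u ^ k)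
    {κ : Type} [Fintype κ] (m : κ → Γ →* Multiplicative ℤ) (e : κ → Γ) (N M : ℕ)
    (hm : ∀ k i, m k (γ i) = 1)
    (hdata : ∀ (χ : Γ →* ℂˣ) (M : ℕ), (∀ i, χ (γ i) ^ M = 1) →
        ∀ g, (χ g * (∏ k, χ (e k) ^ (Multiplicative.toAdd (m k g)))⁻¹) ^ (N * M) = 1)
    (hK : ∀ z : ℂ, z ^ (N * M) = 1 → z ∈ OL L)
    (χ : Fin r → Γ →* ℂˣ) (h1 : ∀ g, ∏ j, χ j g = 1)
    (h2 : ∀ i, GLConj (diagonal fun j => (χ j (γ i) : ℂ)) (c i).1)
    (h3 : ∀ i j, χ j (γ i) ^ M = 1) : diagPt χ ∈ zcl (SD L γ c) := by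
  classical
  let Θ : Fin r → Γ →* ℂˣ := ∏ k, Phi (m k) (fun j => χ j (e k))
  have hΘ : ∀ j g, Θ j g = ∏ k, χ j (e k) ^ (Multiplicative.toAdd (m k g)) := by
    intro j g
    simp only [Θ, Finset.prod_apply, MonoidHom.finsetProd_apply, Phi_apply, phi_apply]
  have hstab : wtw Θ ∈ stab (SD L γ c) := by
    simp only [Θ]
    rw [map_prod]
    exact Submonoid.prod_mem _ fun k _ =>
      Phi_mem_stab L γ c u hu hu' hinj (m k) (hm k) _ (h1 (e k))
  have hdec : diagPt χ = scale (wtw Θ) (diagPt (Θ⁻¹ * χ)) := by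
    rw [scale_wtw]
    congr 1
    funext j
    ext g
    simp
  rw [hdec]
  apply hstab
  apply subset_zcl
  refine ⟨Θ⁻¹ * χ, ?_, ?_, ?_, rfl⟩
  · intro g
    simp only [Pi.mul_apply, Pi.inv_apply, MonoidHom.mul_apply, MonoidHom.inv_apply]
    rw [Finset.prod_mul_distrib, h1, mul_one, Finset.prod_inv_distrib, inv_eq_one]
    simp only [hΘ]
    rw [Finset.prod_comm]
    apply Finset.prod_eq_one
    intro k _
    rw [Finset.prod_zpow, h1, _root_.one_zpow]
  · intro i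
    have : ∀ j, Θ j (γ i) = 1 := by
      intro j
      rw [hΘ]
      apply Finset.prod_eq_one
      intro k _
      rw [hm]
      simp
    simp only [Pi.mul_apply, Pi.inv_apply, MonoidHom.mul_apply, MonoidHom.inv_apply, this, inv_one,
      one_mul]
    exact h2 i
  · intro j g
    apply hK
    have := hdata (χ j) M (fun i => h3 i j) g
    simp only [Pi.mul_apply, Pi.inv_apply, MonoidHom.mul_apply, MonoidHom.inv_apply, hΘ]
    rw [mul_comm, ← Units.val_pow_eq_pow_val, this, Units.val_one]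

/-- the diagonal representation attached to a tuple of characters with product one -/
def diagRep (χ : Fin r → Γ →* ℂˣ) (h1 : ∀ g, ∏ j, χ j g = 1) : Γ →* SLC r where
  toFun g := ⟨diagonal fun j => (χ j g : ℂ), by
    rw [det_diagonal, ← Units.coe_prod, h1, Units.val_one]⟩
  map_one' := by
    apply Subtype.ext
    simp
  map_mul' a b := by
    apply Subtype.ext
    show (diagonal fun j => ((χ j (a * b) : ℂˣ) : ℂ)) =
      (diagonal fun j => (χ j a : ℂ)) * (diagonal fun j => (χ j b : ℂ))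
    rw [diagonal_mul_diagonal]
    simp

theorem SD_subset_Sset (L : IntermediateField ℚ ℂ) (γ : Fin s → Γ) (c : Fin s → SLC r) :
    SD L γ c ⊆ Sset L γ c := by
  rintro _ ⟨χ, h1, h2, h3, rfl⟩
  refine ⟨diagRep χ h1, ⟨1, χ, by simp, ?_⟩, h2, ?_, rfl⟩
  · intro g
    rw [mul_one, one_mul]
    rfl
  · rw [isIntegralRep_iff]
    intro g i j
    show (diagonal fun j => (χ j g : ℂ)) i j ∈ OL L
    rw [diagonal_apply]
    split_ifs
    · exact h3 i g
    · exact Subring.zero_mem _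

theorem GLConj.charpoly_eq {A B : Mat r} (h : GLConj A B) : A.charpoly = B.charpoly := by
  obtain ⟨Q, hQ, h⟩ := h
  have hQu : IsUnit Q := (Matrix.isUnit_iff_isUnit_det Q).mpr hQ
  obtain ⟨U, rfl⟩ := hQu
  have : A = U.val * B * (U.val)⁻¹ := by
    rw [← h, mul_assoc, Matrix.mul_nonsing_inv _ hQ, mul_one]
  rw [this, charpoly_units_conj]

theorem core (L : IntermediateField ℚ ℂ) (γ : Fin s → Γ) (c : Fin s → SLC r)
    (u : ℂˣ) (hu : (u : ℂ) ∈ OL L) (hu' : ((u⁻¹ : ℂˣ) : ℂ) ∈ OL L)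
    (hinj : Function.Injective fun k : ℕ => u ^ k)
    {κ : Type} [Fintype κ] (m : κ → Γ →* Multiplicative ℤ) (e : κ → Γ) (N M : ℕ)
    (hm : ∀ k i, m k (γ i) = 1)
    (hdata : ∀ (χ : Γ →* ℂˣ) (M : ℕ), (∀ i, χ (γ i) ^ M = 1) →
        ∀ g, (χ g * (∏ k, χ (e k) ^ (Multiplicative.toAdd (m k g)))⁻¹) ^ (N * M) = 1)
    (hK : ∀ z : ℂ, z ^ (N * M) = 1 → z ∈ OL L)
    (hM : ∀ i, ∀ μ ∈ (c i).1.charpoly.roots, μ ^ M = 1)
    (ρ : Γ →* SLC r) (hρ : ∃ P χ, SplitBy ρ P χ) (hγ : ∀ i, GLConj (ρ (γ i)).1 (c i).1) :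
    coords ρ ∈ zcl (Sset L γ c) := by
  classical
  obtain ⟨P, χ, hP, hPχ⟩ := hρ
  have h1 : ∀ g, ∏ j, χ j g = 1 := by
    intro g
    have := congrArg det (hPχ g)
    rw [det_mul, det_mul, (ρ g).2, one_mul, det_diagonal] at this
    have h' : (∏ j, (χ j g : ℂ)) = 1 := by
      have h2 : P.det * 1 = P.det * ∏ j, (χ j g : ℂ) := by rw [mul_one]; exact this
      exact (mul_left_cancel₀ hP.ne_zero h2).symm
    apply Units.ext
    rw [Units.coe_prod, h', Units.val_one]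
  have h2 : ∀ i, GLConj (diagonal fun j => (χ j (γ i) : ℂ)) (c i).1 := by
    intro i
    exact GLConj.trans (GLConj.symm ⟨P, hP, hPχ (γ i)⟩) (hγ i)
  have h3 : ∀ i j, χ j (γ i) ^ M = 1 := by
    intro i j
    apply Units.ext
    rw [Units.val_pow_eq_pow_val, Units.val_one]
    apply hM i
    rw [← (h2 i).charpoly_eq, charpoly_diagonal, Polynomial.mem_roots]
    · rw [Polynomial.IsRoot.def, Polynomial.eval_prod]
      apply Finset.prod_eq_zero (Finset.mem_univ j)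
      simp
    · exact Finset.prod_ne_zero_iff.mpr fun j _ => Polynomial.X_sub_C_ne_zero _
  have hd : diagPt χ ∈ zcl (Sset L γ c) :=
    zcl_mono (SD_subset_Sset L γ c)
      (diagPt_mem_zcl_SD L γ c u hu hu' hinj m e N M hm hdata hK χ h1 h2 h3)
  have hfin := conj_stable L γ c u hu hu' hinj P hP.ne_zero _ hd
  have heq : conjPt P P⁻¹ (diagPt χ) = coords ρ := by
    rw [coords_eq]
    simp only [conjPt, diagPt, mat_ofMat]
    congr 1
    funext g
    rw [← hPχ g, mul_assoc, Matrix.mul_nonsing_inv P hP, mul_one]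
  rwa [heq] at hfin

end Vale.Agent.Lib.P002
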