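import Mathlib
import Vale.Agent.Lib.P002.Core5

/-!
Choice of the number field and the final density theorems.
-/

namespace Vale.Agent.Lib.P002

open Matrix Module MvPolynomial

set_option linter.unusedSectionVars false

variable {Γ : Type*} [Group Γ] {r s : ℕ}

theorem isSumOfCharacters_iff_split (ρ : Γ →* SLC r) :
    IsSumOfCharacters ρ ↔ ∃ P χ, SplitBy ρ P χ := by
  classical
  constructor
  · rintro ⟨b, hb⟩
    choose μ hμ using hb
    have hb0 : ∀ j, b j ≠ 0 := fun j => b.ne_zero j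
    have hone : ∀ j, μ j 1 = 1 := by
      intro j
      have h := hμ j 1
      rw [map_one] at h
      have h' : (1 : ℂ) • b j = μ j 1 • b j := by
        rw [← h, one_smul]
        simp
      exact (smul_left_injective ℂ (hb0 j) h').symm
    have hmul : ∀ j g h, μ j (g * h) = μ j g * μ j h := by
      intro j g h
      have h1 := hμ j (g * h)
      rw [map_mul] at h1
      have h2 : ((ρ g * ρ h : SLC r)).1 *ᵥ b j = (μ j g * μ j h) • b j := by
        show ((ρ g).1 * (ρ h).1) *ᵥ b j = _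
        rw [← Matrix.mulVec_mulVec, hμ j h, Matrix.mulVec_smul, hμ j g, smul_smul, mul_comm]
      rw [h1] at h2
      exact smul_left_injective ℂ (hb0 j) h2
    let χ0 : Fin r → Γ →* ℂ := fun j =>
      { toFun := μ j, map_one' := hone j, map_mul' := hmul j }
    let χ : Fin r → Γ →* ℂˣ := fun j => (χ0 j).toHomUnits
    have hχ : ∀ j g, (χ j g : ℂ) = μ j g := fun j g => rfl
    refine ⟨(Pi.basisFun ℂ (Fin r)).toMatrix b, χ, ?_, ?_⟩
    · rw [← Basis.det_apply]
      exact Basis.isUnit_det _ b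
    · intro g
      ext i j
      rw [Matrix.mul_diagonal, hχ, Matrix.mul_apply]
      have h := congrFun (hμ j g) i
      simp only [Matrix.mulVec, dotProduct, Pi.smul_apply, smul_eq_mul] at h
      simp only [Basis.toMatrix_apply, Pi.basisFun_repr]
      rw [h, mul_comm]
  · rintro ⟨P, χ, hP, hPχ⟩
    have hinv : Invertible P := Matrix.invertibleOfIsUnitDet P hP
    let b : Basis (Fin r) ℂ (Fin r → ℂ) :=
      (Pi.basisFun ℂ (Fin r)).map (Matrix.toLinearEquiv' P hinv)
    have hb : ∀ j, b j = P *ᵥ (Pi.single j 1) := by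
      intro j
      have h1 : b j = (Matrix.toLinearEquiv' P hinv) (Pi.single j 1) := by simp [b]
      rw [h1]
      have h2 : ∀ v, (Matrix.toLinearEquiv' P hinv) v = Matrix.toLin' P v := fun v => rfl
      rw [h2, Matrix.toLin'_apply]
    refine ⟨b, fun j g => ⟨(χ j g : ℂ), ?_⟩⟩
    rw [hb, Matrix.mulVec_mulVec, hPχ g, ← Matrix.mulVec_mulVec, ← Matrix.mulVec_smul]
    congr 1
    rw [Matrix.mulVec_single_one]
    funext i
    simp only [Matrix.col_apply, Matrix.diagonal_apply, Pi.smul_apply, Pi.single_apply,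
      smul_eq_mul]
    split_ifs with h1
    · rw [h1, mul_one]
    · rw [mul_zero]

theorem exists_common_order (c : Fin s → SLC r) (hc : ∀ i, IsQuasiUnipotent (c i)) :
    ∃ M : ℕ, 0 < M ∧ ∀ i, ∀ μ ∈ (c i).1.charpoly.roots, μ ^ M = 1 := by
  classical
  let k : Fin s → ℂ → ℕ := fun i μ =>
    if h : μ ∈ (c i).1.charpoly.roots then Classical.choose (hc i μ h) else 1
  have hk : ∀ i μ, 0 < k i μ := by
    intro i μ
    simp only [k]
    split_ifs with h
    · exact (Classical.choose_spec (hc i μ h)).1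
    · exact Nat.one_pos
  have hk' : ∀ i, ∀ μ ∈ (c i).1.charpoly.roots, μ ^ (k i μ) = 1 := by
    intro i μ h
    simp only [k, dif_pos h]
    exact (Classical.choose_spec (hc i μ h)).2
  refine ⟨∏ i, ∏ μ ∈ (c i).1.charpoly.roots.toFinset, k i μ, ?_, ?_⟩
  · exact Finset.prod_pos fun i _ => Finset.prod_pos fun μ _ => hk i μ
  · intro i μ h
    have h1 : k i μ ∣ ∏ μ ∈ (c i).1.charpoly.roots.toFinset, k i μ :=
      Finset.dvd_prod_of_mem _ (Multiset.mem_toFinset.mpr h)
    have h2 : (∏ μ ∈ (c i).1.charpoly.roots.toFinset, k i μ) ∣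
        ∏ i, ∏ μ ∈ (c i).1.charpoly.roots.toFinset, k i μ :=
      Finset.dvd_prod_of_mem (fun i => ∏ μ ∈ (c i).1.charpoly.roots.toFinset, k i μ)
        (Finset.mem_univ i)
    obtain ⟨d, hd⟩ := h1.trans h2
    rw [hd, pow_mul, hk' i μ h, one_pow]

/-- A number field containing the `K`-th roots of unity and a unit of infinite order. -/
theorem exists_field (K : ℕ) (hK : 0 < K) :
    ∃ (L : IntermediateField ℚ ℂ) (u : ℂˣ), FiniteDimensional ℚ L ∧ (u : ℂ) ∈ OL L ∧
      ((u⁻¹ : ℂˣ) : ℂ) ∈ OL L ∧ (Function.Injective fun k : ℕ => u ^ k) ∧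
      ∀ z : ℂ, z ^ K = 1 → z ∈ OL L := by
  have hK0 : K ≠ 0 := hK.ne'
  have : NeZero K := ⟨hK0⟩
  set ζ : ℂ := Complex.exp (2 * Real.pi * Complex.I / K) with hζ
  have hprim : IsPrimitiveRoot ζ K := Complex.isPrimitiveRoot_exp K hK0
  set w : ℂ := ((Real.sqrt 2 : ℝ) : ℂ) with hw
  have hww : w * w = 2 := by
    rw [hw, ← Complex.ofReal_mul, Real.mul_self_sqrt (by norm_num)]
    norm_num
  have hwint : IsIntegral ℤ w := by
    apply IsIntegral.of_pow (n := 2) (by norm_num)
    rw [pow_two, hww]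
    have h2 : (2 : ℂ) = 1 + 1 := by norm_num
    rw [h2]
    exact (isIntegral_one (R := ℤ) (B := ℂ)).add isIntegral_one
  have hζint : IsIntegral ℤ ζ := by
    apply IsIntegral.of_pow hK
    rw [hprim.pow_eq_one]
    exact isIntegral_one
  let L : IntermediateField ℚ ℂ := IntermediateField.adjoin ℚ {ζ, w}
  have hζL : ζ ∈ L := IntermediateField.subset_adjoin ℚ _ (by simp)
  have hwL : w ∈ L := IntermediateField.subset_adjoin ℚ _ (by simp)
  have hfd : FiniteDimensional ℚ L := by
    apply IntermediateField.finiteDimensional_adjoin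
    intro x hx
    have hx' : IsIntegral ℤ x := by
      rcases hx with rfl | hx
      · exact hζint
      · rw [Set.mem_singleton_iff] at hx
        rw [hx]
        exact hwint
    exact hx'.tower_top
  let u : ℂˣ := ⟨1 + w, w - 1, by linear_combination hww, by linear_combination hww⟩
  have hu1 : (u : ℂ) = 1 + w := rfl
  have hu2 : ((u⁻¹ : ℂˣ) : ℂ) = w - 1 := rfl
  refine ⟨L, u, hfd, ?_, ?_, ?_, ?_⟩
  · rw [hu1, mem_OL]
    exact ⟨L.add_mem L.one_mem hwL, isIntegral_one.add hwint⟩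
  · rw [hu2, mem_OL]
    exact ⟨L.sub_mem hwL L.one_mem, hwint.sub isIntegral_one⟩
  · intro a b hab
    have h1 : ‖(u : ℂ)‖ ^ a = ‖(u : ℂ)‖ ^ b := by
      have := congrArg (fun z : ℂˣ => ‖(z : ℂ)‖) hab
      simpa [Units.val_pow_eq_pow_val, norm_pow] using this
    have hnorm : ‖(u : ℂ)‖ = 1 + Real.sqrt 2 := by
      rw [hu1, hw]
      have : (1 : ℂ) + ((Real.sqrt 2 : ℝ) : ℂ) = ((1 + Real.sqrt 2 : ℝ) : ℂ) := by
        push_cast
        ring
      rw [this, Complex.norm_real, Real.norm_eq_abs, abs_of_pos]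
      positivity
    have hgt : 1 < ‖(u : ℂ)‖ := by
      rw [hnorm]
      have : 0 < Real.sqrt 2 := Real.sqrt_pos.mpr (by norm_num)
      linarith
    exact pow_right_injective₀ (by linarith) hgt.ne' h1
  · intro z hz
    obtain ⟨i, _, rfl⟩ := hprim.eq_pow_of_pow_eq_one hz
    rw [mem_OL]
    exact ⟨L.pow_mem hζL i, hζint.pow i⟩

/-- Density of integral points in the locus of sums of characters, for any finitely generated
group and any quasi-unipotent boundary conditions. -/
theorem density_split [Group.FG Γ] (γ : Fin s → Γ) (c : Fin s → SLC r)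
    (hc : ∀ i, IsQuasiUnipotent (c i)) :
    ∃ L : IntermediateField ℚ ℂ, FiniteDimensional ℚ L ∧
      ∀ F : MvPolynomial (Γ × Fin r × Fin r) ℂ,
        (∀ ρ : Γ →* SLC r, IsSumOfCharacters ρ → (∀ i, IsConj (ρ (γ i)) (c i)) →
          IsIntegralRep L ρ → eval (coords ρ) F = 0) →
        ∀ ρ : Γ →* SLC r, IsSumOfCharacters ρ → (∀ i, IsConj (ρ (γ i)) (c i)) →
          eval (coords ρ) F = 0 := by
  obtain ⟨κ, hκ, m, e, N, hN, hm, hdata⟩ := exists_free_data γ
  obtain ⟨M, hM0, hM⟩ := exists_common_order c hc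
  obtain ⟨L, u, hfd, hu, hu', hinj, hK⟩ := exists_field (N * M) (Nat.mul_pos hN hM0)
  refine ⟨L, hfd, ?_⟩
  intro F hF ρ hρ hγ
  have hmem := core L γ c u hu hu' hinj m e N M hm hdata hK hM ρ
    ((isSumOfCharacters_iff_split ρ).mp hρ) (fun i => (isConj_iff_GLConj _ _).mp (hγ i))
  apply hmem F
  rintro _ ⟨ρ', hs, hg, hi, rfl⟩
  exact hF ρ' ((isSumOfCharacters_iff_split ρ').mpr hs)
    (fun i => (isConj_iff_GLConj _ _).mpr (hg i)) hi

end Vale.Agent.Lib.P002
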